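import Vale.Agent.P097.H650.T.WinW
import Vale.Agent.P097.H82.Sel.Dep

/-!
# P097 / case [c] / block (T), row SEL-A: the depth over the world `W5`

`nat_w5`: the labels near `u₀` satisfy 82's `DG`, and the points of small positive depth are native.
`win_sub`: the balls of the windows are native.
-/

set_option linter.all false

open Complex Metric Filter Topology Set MeasureTheory
open scoped ComplexConjugate

namespace Vale.Agent.P097.H650.T

open Vale.Agent.P097.TC Vale.Agent.P097.H85 Vale.Agent.P097.H929 Vale.Agent.P097.A5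
open Vale.Agent.P097.H82.Sel

/-- height of the edge over the labels -/
def Rr (P : ℝ → ℂ) (u : ℝ) : ℝ := (P u).im

/-- native points of small depth -/
def ND (A : Set ℝ) (P : ℝ → ℂ) (c : ℝ → ℝ) (K1 u₀ d rm : ℝ) : Set (ℂ × ℂ) :=
  {z | ‖z.2 - u₀‖ < d ∧ 0 < dep A (Rr P) c K1 z ∧ dep A (Rr P) c K1 z < rm}

theorem ND_open {A : Set ℝ} {P : ℝ → ℂ} {c : ℝ → ℝ} {K1 T u₀ d rm : ℝ} (h : DG A (Rr P) c K1 T) :
    IsOpen (ND A P c K1 u₀ d rm) := by
  have hc := h.cont_dep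
  have a1 : IsOpen {z : ℂ × ℂ | ‖z.2 - (u₀ : ℂ)‖ < d} :=
    isOpen_lt (by fun_prop) continuous_const
  have a2 : IsOpen {z : ℂ × ℂ | 0 < dep A (Rr P) c K1 z} := isOpen_lt continuous_const hc
  have a3 : IsOpen {z : ℂ × ℂ | dep A (Rr P) c K1 z < rm} := isOpen_lt hc continuous_const
  exact a1.inter (a2.inter a3)

variable {Λ H b m K y₀ u₀ σ s : ℝ} {F q Ψ J : ℂ → ℂ} {Mj Mk B : Set (ℂ × ℂ)} {A : Set ℝ}
  {P : ℝ → ℂ} {c k : ℝ → ℝ} {al p th : ℂ × ℂ → ℂ}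

/-- **SEL-A (a)** -/
theorem nat_w5 (W : W5 Λ H F q b m Ψ Mj Mk B A P c k K y₀ u₀ σ s al p th J) :
    ∃ K₀ : ℝ, ∀ K1 ≥ K₀, ∃ T : ℝ, ∃ D₁ > 0, ∀ d₁ : ℝ, 0 < d₁ → d₁ ≤ D₁ → ∃ d > 0, ∃ rm > 0,
      DG (A ∩ closedBall u₀ d₁) (Rr P) c K1 T ∧ IsCompact (A ∩ closedBall u₀ d₁) ∧
      ND (A ∩ closedBall u₀ d₁) P c K1 u₀ d rm ⊆ B ∩ Dm Mj Mk := by
  obtain ⟨S, hS⟩ := W.Uj.bd
  obtain ⟨K₀, hK₀, dl, hdl, hlab⟩ := cn_lab W.Uj
  refine ⟨max (K + 1) (max K₀ |S|), fun K1 hK1 => ?_⟩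
  have hK1a : K < K1 := by have := (le_max_left _ _).trans hK1; linarith
  have hK1b : K₀ ≤ K1 := ((le_max_left _ _).trans (le_max_right _ _)).trans hK1
  have hK1c : |S| ≤ K1 := ((le_max_right _ _).trans (le_max_right _ _)).trans hK1
  obtain ⟨δ, hδ, hnat⟩ := nat_cone W.K0 W.coneU hK1a
  refine ⟨|S|, min (dl / 3) (δ / 3), by positivity, fun d₁ hd₁ hd₁D => ?_⟩
  have hd1 : d₁ ≤ dl / 3 := hd₁D.trans (min_le_left _ _)
  have hd2 : d₁ ≤ δ / 3 := hd₁D.trans (min_le_right _ _)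
  set A' : Set ℝ := A ∩ closedBall u₀ d₁ with hA'
  have hu0 : u₀ ∈ A' := ⟨W.u0, mem_closedBall_self hd₁.le⟩
  have hAc : IsCompact A' := W.cA.inter_right isClosed_closedBall
  have hDG : DG A' (Rr P) c K1 |S| := by
    refine ⟨⟨u₀, hu0⟩, ?_, fun u hu => ((hS u hu.1).1).trans (le_abs_self _), hK1c, ?_⟩
    · exact (hAc.image_of_continuousOn (W.cR.mono inter_subset_left)).bddAbove
    · intro u hu u' hu'
      have h1 : |u - u'| < dl := by
        have e1 := hu.2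
        have e2 := hu'.2
        rw [mem_closedBall, Real.dist_eq] at e1 e2
        have := abs_sub_le u u₀ u'
        rw [abs_sub_comm u₀ u'] at this
        linarith
      have h2 := hlab K1 hK1b u hu.1 u' hu'.1 h1
      have e3 : ‖(u : ℂ) - (u' : ℂ)‖ = |u - u'| := by
        rw [← ofReal_sub, Complex.norm_real, Real.norm_eq_abs]
      unfold cn at h2
      rw [e3, ofReal_re] at h2
      exact h2
  have hK1p : 0 < K1 := W.K0.trans hK1a
  have hgap : 0 < (P u₀).im - b := by have := W.hb u₀ W.u0; linarith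
  have hu00 : 0 < |u₀| := abs_pos.2 (W.uz u₀ W.u0)
  set X : ℝ := |S| + K1 with hX
  have hX0 : 0 < X := by positivity
  set d : ℝ := min (δ / 3) (min |u₀| (((P u₀).im - b) / (2 * X))) with hd
  have hd0 : 0 < d := by positivity
  have hda : d ≤ δ / 3 := min_le_left _ _
  have hdb : d ≤ |u₀| := (min_le_right _ _).trans (min_le_left _ _)
  have hdc : X * d ≤ ((P u₀).im - b) / 2 := by
    have h1 : d ≤ ((P u₀).im - b) / (2 * X) := (min_le_right _ _).trans (min_le_right _ _)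
    calc X * d ≤ X * (((P u₀).im - b) / (2 * X)) := mul_le_mul_of_nonneg_left h1 hX0.le
      _ = ((P u₀).im - b) / 2 := by field_simp
  refine ⟨d, hd0, ((P u₀).im - b) / 2, by positivity, hDG, hAc, ?_⟩
  rintro ⟨t, w⟩ ⟨h1, h2, h3⟩
  simp only at h1
  have hdep : dep A' (Rr P) c K1 (t, w) = hgt A' (Rr P) c K1 w - t.im := rfl
  rw [hdep] at h2 h3
  have hb1 : b < t.im := by
    have e1 := hDG.le_hgt hu0 w
    have e2 : |w.re - u₀| ≤ ‖w - u₀‖ := re_le_norm w u₀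
    have e3 : -(|S| * ‖w - u₀‖) ≤ c u₀ * (w.re - u₀) := by
      have e4 : |c u₀ * (w.re - u₀)| ≤ |S| * ‖w - u₀‖ := by
        rw [abs_mul]
        exact mul_le_mul (((hS u₀ W.u0).1).trans (le_abs_self _)) e2 (abs_nonneg _) (abs_nonneg _)
      exact (abs_le.1 e4).1
    have e5 : X * ‖w - u₀‖ ≤ X * d := mul_le_mul_of_nonneg_left h1.le hX0.le
    have e6 : X * ‖w - u₀‖ = |S| * ‖w - u₀‖ + K1 * ‖w - u₀‖ := by rw [hX]; ring
    have e7 : Rr P u₀ = (P u₀).im := rfl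
    rw [e7] at e1
    linarith
  obtain ⟨u, hu, hlt⟩ := hDG.exists_lt (w := w) (x := t.im) (by linarith)
  have hwu : ‖w - u‖ < δ := by
    have e1 := hu.2
    rw [mem_closedBall, Real.dist_eq] at e1
    have e2 : ‖(u₀ : ℂ) - (u : ℂ)‖ = |u - u₀| := by
      rw [← ofReal_sub, Complex.norm_real, Real.norm_eq_abs, abs_sub_comm]
    have e3 : ‖w - u‖ ≤ ‖w - u₀‖ + ‖(u₀ : ℂ) - (u : ℂ)‖ := by
      have := norm_add_le (w - u₀) ((u₀ : ℂ) - (u : ℂ))
      have e4 : w - u₀ + ((u₀ : ℂ) - (u : ℂ)) = w - u := by ring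
      rwa [e4] at this
    linarith
  have hB : (t, w) ∈ B := hnat u hu.1 t w hwu hb1 (by
    unfold cn
    have : Rr P u = (P u).im := rfl
    rw [this] at hlt
    exact hlt)
  refine ⟨hB, ⟨W.Bj hB, W.Bk hB⟩, ?_⟩
  show w ≠ 0
  intro h0
  rw [h0, zero_sub, norm_neg, Complex.norm_real, Real.norm_eq_abs] at h1
  linarith

/-- **SEL-A (b)**: the balls of the windows are native -/
theorem win_sub {A : Set ℝ} {K1 T u₀ d rm kap : ℝ} (h : DG A (Rr P) c K1 T) (hk : 0 ≤ kap)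
    (hk1 : (T + K1 + 1) * kap ≤ 1 / 2) (hk2 : kap ≤ 1) {K2 d' rm' : ℝ} (hd : d' + rm' ≤ d)
    (hr : 3 / 2 * rm' ≤ rm) {z : ℂ × ℂ} (hz : z ∈ Zs A (Rr P) c K1 K2 u₀ d' rm') :
    closedBall z (kap * dep A (Rr P) c K1 z) ⊆ ND A P c K1 u₀ d rm := by
  obtain ⟨h1, h2, h3, h4, h5⟩ := hz
  intro x hx
  rw [mem_closedBall, dist_eq_norm] at hx
  have e1 := h.dep_ball (z := z) (z' := x) (r := 1 / 2 * dep A (Rr P) c K1 z) (by
    have e2 : 0 ≤ T + K1 + 1 := by linarith [h.T0, h.K0]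
    calc (T + K1 + 1) * ‖x - z‖ ≤ (T + K1 + 1) * (kap * dep A (Rr P) c K1 z) :=
          mul_le_mul_of_nonneg_left hx e2
      _ = ((T + K1 + 1) * kap) * dep A (Rr P) c K1 z := by ring
      _ ≤ 1 / 2 * dep A (Rr P) c K1 z := mul_le_mul_of_nonneg_right hk1 h3.le)
  refine ⟨?_, by linarith [e1.1], by linarith [e1.2]⟩
  have e3 : ‖x.2 - z.2‖ ≤ kap * dep A (Rr P) c K1 z := (norm_snd_le (x - z)).trans hx
  have e4 : kap * dep A (Rr P) c K1 z ≤ dep A (Rr P) c K1 z := by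
    have := mul_le_mul_of_nonneg_right hk2 h3.le
    linarith
  have e5 : ‖z.2 - u₀‖ = |z.2.re - u₀| := by
    have : z.2 - u₀ = ((z.2.re - u₀ : ℝ) : ℂ) := by
      apply Complex.ext <;> simp [h1]
    rw [this, Complex.norm_real, Real.norm_eq_abs]
  have e6 : ‖x.2 - u₀‖ ≤ ‖x.2 - z.2‖ + ‖z.2 - u₀‖ := by
    have := norm_add_le (x.2 - z.2) (z.2 - u₀)
    have e7 : x.2 - z.2 + (z.2 - u₀) = x.2 - u₀ := by ring
    rwa [e7] at this
  rw [e5] at e6
  linarith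

/-- the vertical points over a label are windows -/
theorem vp_win {A : Set ℝ} {K1 T u₀ : ℝ} (h : DG A (Rr P) c K1 T) {K2 d' rm' u : ℝ}
    (hu : u ∈ A) (hd : |u - u₀| < d') (y : ℝ) {t : ℝ} (h0 : 0 < t) (h1 : t < rm') :
    vp P y u t ∈ Zs A (Rr P) c K1 K2 u₀ d' rm' ∧ dep A (Rr P) c K1 (vp P y u t) = t := by
  have e1 : dep A (Rr P) c K1 (vp P y u t) = t := h.dep_at hu y t
  refine ⟨⟨by simp [vp], by simpa [vp] using hd, by rw [e1]; exact h0, by rw [e1]; exact h1, ?_⟩, e1⟩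
  rw [e1]
  have : (vp P y u t).2.re = u := by simp [vp]
  rw [this, infDist_zero_of_mem hu, mul_zero]
  exact h0.le

end Vale.Agent.P097.H650.T
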