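import Vale.Agent.P097.H650.T.WinW
import Vale.Agent.P097.H418.Base2

/-!
# P097 / case [c] / block (T), row SEL-B: the base of the pick over the world

Start point: an R2-free mid-level window `z₀ = vp P y₁ u T` over the label `u` (82's `QG`), then a
horizontal piece at depth `T` to the vertical over a generic point `y₂` (wall), then the octaves of
this vertical.  394 `first_exit` + 418 `pick_of_sum`.
-/

set_option linter.all false

open Complex Metric Filter Topology Set MeasureTheory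
open scoped ComplexConjugate ENNReal

namespace Vale.Agent.P097.H650.T

open Vale.Agent.P097.TC Vale.Agent.P097.H85 Vale.Agent.P097.H929 Vale.Agent.P097.A5
open Vale.Agent.P097.H315.Pick Vale.Agent.P097.H315

section per
variable {H : ℝ} {F q : ℂ → ℂ}

theorem sb_int {x : ℂ} (hx : x ∈ Sb H) (j : ℤ) : x + (j : ℂ) ∈ Sb H := by
  simpa [Sb] using hx

theorem add_int_of {f : ℂ → ℂ} {a : ℂ} (hf : ∀ x ∈ Sb H, f (x + 1) = f x + a) {x : ℂ}
    (hx : x ∈ Sb H) (k : ℤ) : f (x + k) = f x + k * a := by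
  induction k using Int.induction_on with
  | zero => simp
  | succ i ih =>
    have h1 := hf _ (sb_int hx (i : ℤ))
    have e1 : x + ((i : ℤ) : ℂ) + 1 = x + ((i : ℤ) + 1 : ℤ) := by push_cast; ring
    rw [e1, ih] at h1
    rw [h1]
    push_cast; ring
  | pred i ih =>
    have h1 := hf _ (sb_int hx (-(i : ℤ) - 1))
    have e1 : x + ((-(i : ℤ) - 1 : ℤ) : ℂ) + 1 = x + (-(i : ℤ) : ℤ) := by push_cast; ring
    rw [e1, ih] at h1
    have h2 : f (x + ((-(i : ℤ) - 1 : ℤ) : ℂ)) = f x + ((-(i : ℤ) : ℤ) : ℂ) * a - a := by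
      rw [h1]; ring
    rw [h2]
    push_cast; ring

theorem isOpen_Sb' (H : ℝ) : IsOpen (Sb H) :=
  isOpen_lt Complex.continuous_im.abs continuous_const

theorem deriv_add_int {f : ℂ → ℂ} {a : ℂ} (hf : ∀ x ∈ Sb H, f (x + 1) = f x + a) {x : ℂ}
    (hx : x ∈ Sb H) (k : ℤ) : deriv f (x + k) = deriv f x := by
  have h1 : (fun y : ℂ => f (y + k)) =ᶠ[𝓝 x] fun y => f y + k * a := by
    filter_upwards [(isOpen_Sb' H).mem_nhds hx] with y hy
    exact add_int_of hf hy k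
  have h2 := h1.deriv_eq
  rw [deriv_comp_add_const] at h2
  rw [h2, deriv_add_const]

theorem mi_int (hF : ∀ x ∈ Sb H, F (x + 1) = F x + 2 * Real.pi) (hq : ∀ x ∈ Sb H, q (x + 1) = q x)
    (a p : ℂ) {x : ℂ} (hx : x ∈ Sb H) (k : ℤ) : Mi F q a p (x + k) = Mi F q a p x := by
  have hq' : ∀ x ∈ Sb H, q (x + 1) = q x + 0 := fun x hx => by rw [hq x hx, add_zero]
  unfold Mi
  rw [deriv_add_int hF hx, deriv_add_int hq' hx, add_int_of hF hx, add_int_of hq' hx]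
  have e1 : a - (F x + k * (2 * Real.pi)) = (a - F x) - k * (2 * Real.pi) := by ring
  rw [e1, Complex.cos_sub_int_mul_two_pi, Complex.sin_sub_int_mul_two_pi, mul_zero, add_zero]

end per

/-- the local data of the lines and of the position, on an open set -/
structure Lcl (H : ℝ) (F q : ℂ → ℂ) (D : Set (ℂ × ℂ)) (al p th : ℂ × ℂ → ℂ) : Prop where
  dal : ContinuousOn al D
  dp : ContinuousOn p D
  dth : ContinuousOn th D
  mem : ∀ z ∈ D, th z ∈ Sb H
  inc : ∀ z ∈ D, Mi F q (al z) (p z) (th z) = 0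

/-- the pieces: `0` = horizontal piece at depth `T` from `y₁` to `y₂` and the vertical over `y₂`
down to `2 ^ (-(m + 1))`; `i + 1` = octave `m + i + 1` of the vertical over `y₂` -/
def Pc (P : ℝ → ℂ) (u y₁ y₂ T : ℝ) (m : ℕ) : ℕ → Set (ℂ × ℂ)
  | 0 => (fun x : ℝ => vp P x u T) '' uIcc y₁ y₂ ∪
      (fun t : ℝ => vp P y₂ u t) '' Icc ((1 / 2) ^ (m + 1)) T
  | i + 1 => (fun t : ℝ => vp P y₂ u t) '' Icc ((1 / 2) ^ (m + (i + 1) + 1)) ((1 / 2) ^ (m + (i + 1)))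

section pieces
variable {P : ℝ → ℂ} {u y₁ y₂ T : ℝ} {m : ℕ}

theorem half_le (j : ℕ) : (1 / 2 : ℝ) ^ (j + 1) ≤ (1 / 2) ^ j :=
  pow_le_pow_of_le_one (by norm_num) (by norm_num) (by omega)

theorem cont_x (P : ℝ → ℂ) (u T : ℝ) : Continuous fun x : ℝ => vp P x u T :=
  (continuous_vp P u).comp (f := fun x : ℝ => (x, T)) (by fun_prop)

theorem cont_t (P : ℝ → ℂ) (u y : ℝ) : Continuous fun t : ℝ => vp P y u t :=
  (continuous_vp P u).comp (f := fun x : ℝ => (y, x)) (by fun_prop)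

theorem Pc_preconn (hT : (1 / 2 : ℝ) ^ (m + 1) ≤ T) (i : ℕ) :
    IsPreconnected (Pc P u y₁ y₂ T m i) := by
  cases i with
  | zero =>
    refine IsPreconnected.union (vp P y₂ u T) ⟨y₂, right_mem_uIcc, rfl⟩ ⟨T, ⟨hT, le_rfl⟩, rfl⟩
      (isPreconnected_uIcc.image _ (cont_x P u T).continuousOn)
      (isPreconnected_Icc.image _ (cont_t P u y₂).continuousOn)
  | succ i => exact isPreconnected_Icc.image _ (cont_t P u y₂).continuousOn

theorem Pc_compact (i : ℕ) : IsCompact (Pc P u y₁ y₂ T m i) := by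
  cases i with
  | zero =>
    exact (isCompact_uIcc.image (cont_x P u T)).union (isCompact_Icc.image (cont_t P u y₂))
  | succ i => exact isCompact_Icc.image (cont_t P u y₂)

theorem Pc_inter (hT : (1 / 2 : ℝ) ^ (m + 1) ≤ T) (i : ℕ) :
    (Pc P u y₁ y₂ T m i ∩ Pc P u y₁ y₂ T m (i + 1)).Nonempty := by
  cases i with
  | zero =>
    refine ⟨vp P y₂ u ((1 / 2) ^ (m + 1)), Or.inr ⟨_, ⟨le_rfl, hT⟩, rfl⟩, ⟨_, ⟨?_, ?_⟩, rfl⟩⟩
    · exact half_le _
    · simp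
  | succ i =>
    refine ⟨vp P y₂ u ((1 / 2) ^ (m + (i + 1) + 1)), ⟨_, ⟨le_rfl, half_le _⟩, rfl⟩,
      ⟨_, ⟨half_le _, ?_⟩, rfl⟩⟩
    exact le_of_eq (by ring_nf)

theorem Pc_mem (hT : (1 / 2 : ℝ) ^ (m + 1) ≤ T) (hT' : T ≤ (1 / 2 : ℝ) ^ m) {i : ℕ} {z : ℂ × ℂ}
    (hz : z ∈ Pc P u y₁ y₂ T m i) : ∃ x ∈ uIcc y₁ y₂, ∃ t : ℝ, z = vp P x u t ∧
      (1 / 2 : ℝ) ^ (m + i + 1) ≤ t ∧ t ≤ (1 / 2) ^ (m + i) := by
  cases i with
  | zero =>
    rcases hz with ⟨x, hx, rfl⟩ | ⟨t, ht, rfl⟩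
    · exact ⟨x, hx, T, rfl, hT, hT'⟩
    · exact ⟨y₂, right_mem_uIcc, t, rfl, ht.1, ht.2.trans hT'⟩
  | succ i =>
    obtain ⟨t, ht, rfl⟩ := hz
    exact ⟨y₂, right_mem_uIcc, t, rfl, ht.1, ht.2⟩

/-- depth on the pieces is at most `T` -/
theorem Pc_le (hT : (1 / 2 : ℝ) ^ (m + 1) ≤ T) {i : ℕ} {z : ℂ × ℂ}
    (hz : z ∈ Pc P u y₁ y₂ T m i) : ∃ x ∈ uIcc y₁ y₂, ∃ t : ℝ, z = vp P x u t ∧ 0 < t ∧ t ≤ T := by
  have hp : ∀ j : ℕ, (0 : ℝ) < (1 / 2) ^ j := fun j => by positivity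
  cases i with
  | zero =>
    rcases hz with ⟨x, hx, rfl⟩ | ⟨t, ht, rfl⟩
    · exact ⟨x, hx, T, rfl, (hp _).trans_le hT, le_rfl⟩
    · exact ⟨y₂, right_mem_uIcc, t, rfl, (hp _).trans_le ht.1, ht.2⟩
  | succ i =>
    obtain ⟨t, ht, rfl⟩ := hz
    refine ⟨y₂, right_mem_uIcc, t, rfl, (hp _).trans_le ht.1, ht.2.trans (le_trans ?_ hT)⟩
    exact pow_le_pow_of_le_one (by norm_num) (by norm_num) (by omega)

/-- the vertical is covered -/
theorem Pc_cover (hT' : T ≤ (1 / 2 : ℝ) ^ m) {t : ℝ} (ht : 0 < t) (htT : t ≤ T) :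
    ∃ i, vp P y₂ u t ∈ Pc P u y₁ y₂ T m i := by
  by_cases h : (1 / 2 : ℝ) ^ (m + 1) ≤ t
  · exact ⟨0, Or.inr ⟨t, ⟨h, htT⟩, rfl⟩⟩
  · push Not at h
    classical
    have hex : ∃ n : ℕ, (1 / 2 : ℝ) ^ (m + (n + 1) + 1) ≤ t := by
      obtain ⟨n, hn⟩ := exists_pow_lt_of_lt_one ht (by norm_num : (1 / 2 : ℝ) < 1)
      exact ⟨n, (pow_le_pow_of_le_one (by norm_num) (by norm_num) (by omega)).trans hn.le⟩
    set n := Nat.find hex with hn
    have h1 := Nat.find_spec hex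
    refine ⟨n + 1, ⟨t, ⟨h1, ?_⟩, rfl⟩⟩
    rcases Nat.eq_zero_or_pos n with h0 | h0
    · have : (1 / 2 : ℝ) ^ (m + (n + 1)) = (1 / 2) ^ (m + 1) := by rw [h0]
      rw [this]; exact h.le
    · have h2 := Nat.find_min hex (show n - 1 < n by omega)
      push Not at h2
      have h3 : m + (n - 1 + 1) + 1 = m + (n + 1) := by omega
      rw [h3] at h2
      exact h2.le

end pieces

theorem vp_sub (P : ℝ → ℂ) (u x x' t t' : ℝ) :
    ‖vp P x u t - vp P x' u t'‖ ≤ |x - x'| + |t - t'| := by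
  have h1 : vp P x u t - vp P x' u t' = (((x - x' : ℝ) : ℂ) + ((t' - t : ℝ) : ℂ) * I, 0) := by
    apply Prod.ext
    · simp only [vp, Prod.fst_sub]
      push_cast
      ring
    · simp [vp]
  rw [h1, Prod.norm_def, norm_zero, max_eq_left (norm_nonneg _)]
  refine (norm_add_le _ _).trans ?_
  rw [norm_mul, Complex.norm_I, mul_one, Complex.norm_real, Complex.norm_real, Real.norm_eq_abs,
    Real.norm_eq_abs, abs_sub_comm t' t]

/-- segments over one label -/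
theorem seg_vp {P : ℝ → ℂ} {u x x' t t' : ℝ} {z : ℂ × ℂ}
    (hz : z ∈ segment ℝ (vp P x u t) (vp P x' u t')) :
    ∃ a b : ℝ, 0 ≤ a ∧ 0 ≤ b ∧ a + b = 1 ∧ z = vp P (a * x + b * x') u (a * t + b * t') := by
  obtain ⟨a, b, ha, hb, hab, rfl⟩ := hz
  refine ⟨a, b, ha, hb, hab, ?_⟩
  have hb' : b = 1 - a := by linarith
  subst hb'
  apply Prod.ext
  · simp only [vp, Prod.fst_add, Prod.smul_fst, Complex.real_smul]
    push_cast
    ring
  · simp only [vp, Prod.snd_add, Prod.smul_snd, Complex.real_smul]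
    push_cast
    ring

/-- compact set of good positions -/
theorem good_set {Λ H : ℝ} {F q : ℂ → ℂ} (crv : Crv Λ H F q) {c₁ : ℝ} (hc : 0 < c₁) :
    ∃ (K : Set ℂ) (η : ℝ), IsCompact K ∧ K ⊆ Sb H ∧ 0 < η ∧ cthickening η K ⊆ Sb H ∧
      (∀ x, |x.re| ≤ 1 → |x.im| ≤ (1 - c₁) * H → c₁ ≤ ‖deriv F x‖ → x ∈ K) ∧
      ∀ x ∈ K, ∀ x', ‖x' - x‖ ≤ η → |x'.im| ≤ (1 - c₁ / 2) * H ∧ c₁ / 2 ≤ ‖deriv F x'‖ := by
  have hH : 0 < H := crv.cv.b0
  have hcH : 0 < c₁ * H := by positivity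
  have hcl : ∀ a r : ℝ, IsCompact {x : ℂ | |x.re| ≤ a ∧ |x.im| ≤ r} := by
    intro a r
    apply Metric.isCompact_of_isClosed_isBounded
    · exact (isClosed_le Complex.continuous_re.abs continuous_const).inter
        (isClosed_le Complex.continuous_im.abs continuous_const)
    · refine (Metric.isBounded_closedBall (x := (0 : ℂ)) (r := a + r)).subset ?_
      rintro x ⟨h1, h2⟩
      rw [mem_closedBall, dist_zero_right]
      exact (Complex.norm_le_abs_re_add_abs_im x).trans (by linarith)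
  have hdF : ContinuousOn (deriv F) (Sb H) :=
    (crv.cv.dF.deriv (isOpen_Sb' H)).continuousOn
  set K₁ : Set ℂ := {x : ℂ | |x.re| ≤ 2 ∧ |x.im| ≤ (1 - c₁ / 2) * H} with hK₁
  have hK₁b : K₁ ⊆ Sb H := fun x hx => by
    show |x.im| < H
    have := hx.2
    nlinarith
  have hK₁c : IsCompact K₁ := hcl _ _
  have huc := hK₁c.uniformContinuousOn_of_continuous (hdF.mono hK₁b)
  rw [Metric.uniformContinuousOn_iff] at huc
  obtain ⟨η₂, hη₂, huc⟩ := huc (c₁ / 2) (by positivity)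
  set K₀ : Set ℂ := {x : ℂ | |x.re| ≤ 1 ∧ |x.im| ≤ (1 - c₁) * H} with hK₀
  have hK₀c : IsCompact K₀ := hcl _ _
  have hK₀b : K₀ ⊆ Sb H := fun x hx => by
    show |x.im| < H
    have := hx.2
    nlinarith
  have hKcl : IsClosed (K₀ ∩ (fun x => ‖deriv F x‖) ⁻¹' Ici c₁) :=
    ((hdF.mono hK₀b).norm).preimage_isClosed_of_isClosed hK₀c.isClosed isClosed_Ici
  set K : Set ℂ := K₀ ∩ (fun x => ‖deriv F x‖) ⁻¹' Ici c₁ with hK
  have hKc : IsCompact K := hK₀c.of_isClosed_subset hKcl inter_subset_left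
  set η : ℝ := min (min 1 (c₁ * H / 2)) (η₂ / 2) with hη
  have hη0 : 0 < η := by positivity
  have hη1 : η ≤ 1 := (min_le_left _ _).trans (min_le_left _ _)
  have hη2 : η ≤ c₁ * H / 2 := (min_le_left _ _).trans (min_le_right _ _)
  have hη3 : η ≤ η₂ / 2 := min_le_right _ _
  have key : ∀ x ∈ K, ∀ x', ‖x' - x‖ ≤ η → x' ∈ K₁ := by
    intro x hx x' hx'
    have e1 : |(x' - x).re| ≤ η := (Complex.abs_re_le_norm _).trans hx'
    have e2 : |(x' - x).im| ≤ η := (Complex.abs_im_le_norm _).trans hx'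
    rw [sub_re] at e1
    rw [sub_im] at e2
    have e3 := hx.1.1
    have e4 := hx.1.2
    have e5 := abs_sub_abs_le_abs_sub x'.re x.re
    have e6 := abs_sub_abs_le_abs_sub x'.im x.im
    constructor
    · linarith
    · have : (1 - c₁ / 2) * H = (1 - c₁) * H + c₁ * H / 2 := by ring
      linarith
  refine ⟨K, η, hKc, inter_subset_left.trans hK₀b, hη0, ?_, fun x h1 h2 h3 => ⟨⟨h1, h2⟩, h3⟩, ?_⟩
  · intro z hz
    rw [hKc.cthickening_eq_biUnion_closedBall hη0.le] at hz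
    simp only [mem_iUnion, mem_closedBall, exists_prop] at hz
    obtain ⟨x, hx, hzx⟩ := hz
    rw [dist_eq_norm] at hzx
    exact hK₁b (key x hx z hzx)
  · intro x hx x' hx'
    have h1 := key x hx x' hx'
    refine ⟨h1.2, ?_⟩
    have h2 : x ∈ K₁ := key x hx x (by simpa using hη0.le)
    have h3 := huc x h2 x' h1 (by rw [dist_comm, dist_eq_norm]; linarith)
    rw [dist_eq_norm] at h3
    have h4 : c₁ ≤ ‖deriv F x‖ := hx.2
    have h5 := norm_sub_norm_le (deriv F x) (deriv F x')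
    linarith

/-- **SEL-B : the base and the pick.**  `ρ₁`, `N` depend on the curve and on `C`, `c₁`, `κ` only. -/
theorem selB {Λ H : ℝ} {F q : ℂ → ℂ} (crv : Crv Λ H F q) {C c₁ κ : ℝ} (hC : 1 ≤ C) (hc : 0 < c₁)
    (hκ : 0 < κ) : ∃ ρ₁ > 0, ∃ N : ℝ, ρ₁ ≤ N ∧
    ∀ {D : Set (ℂ × ℂ)} {al p th : ℂ × ℂ → ℂ}, Lcl H F q D al p th →
    ∀ {P : ℝ → ℂ} {Zs : Set (ℂ × ℂ)} {w : Win Zs} {E : Zs → ℝ}, (∀ z, 0 ≤ E z) → (∀ z, E z ≤ 1) →
    (∀ z z' : Zs, |(z : ℂ × ℂ).2.re - (z' : ℂ × ℂ).2.re| + w.ρ z + w.ρ z' ≤ w.D z z') →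
    (∀ (x y : ℂ × ℂ) (δ s : ℝ), 0 < δ → 0 ≤ s → s < 1 →
      (∀ z ∈ segment ℝ x y, ∃ hz : z ∈ Zs, δ ≤ w.ρ ⟨z, hz⟩ ∧ E ⟨z, hz⟩ ≤ s) →
      ‖al x - al y‖ ≤ (‖x - y‖ / (κ * δ) + 1) * s ∧ ‖p x - p y‖ ≤ (‖x - y‖ / (κ * δ) + 1) * s) →
    ∀ {A B : Set ℝ}, MeasurableSet B → ∀ {u η : ℝ}, u ∈ A → 0 < η →
    8 * Marc.Jm A B u ≤ ENNReal.ofReal η → ∀ {m : ℕ},
    ∑' k : ℕ, H418.bi (1 / 2) A B u (k + m) ≤
      ENNReal.ofReal (η * (ρ₁ / N) / 2 ^ (2 * (1 / 2 : ℝ) + 8)) →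
    ∀ {y₁ y₂ T : ℝ}, (1 / 2 : ℝ) ^ (m + 1) ≤ T → T ≤ (1 / 2) ^ m → |y₁ - y₂| ≤ C * T →
    (∀ x ∈ uIcc y₁ y₂, ∀ t : ℝ, 0 < t → t ≤ T → vp P x u t ∈ D ∧
      ∃ hz : vp P x u t ∈ Zs, w.ρ ⟨vp P x u t, hz⟩ = t) →
    |(th (vp P y₁ u T)).im| ≤ (1 - c₁) * H → c₁ ≤ ‖deriv F (th (vp P y₁ u T))‖ →
    |(al (vp P y₁ u T)).im| ≤ C →
    Tendsto (fun S : ℝ => |(th (vp P y₂ u S)).im|) (𝓝[>] 0) (𝓝 H) →
    ∃ (i : ℕ) (p₀ : Zs), (p₀ : ℂ × ℂ) ∈ Pc P u y₁ y₂ T m i ∧ ∃ z : Zs, w.Near (1 / 2) E p₀ z ∧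
      Marc.Mz A B (z : ℂ × ℂ).2.re (w.ρ z) < ENNReal.ofReal η ∧
      (1 - (1 / 2 : ℝ) ^ (1 / 8 : ℝ)) / 4 * (ρ₁ / N) * ((1 / 2 : ℝ) ^ i) ^ (1 / 8 : ℝ) ≤ E p₀ ∧
      ∀ i' < i, ∀ z' ∈ Pc P u y₁ y₂ T m i', ‖al z' - al (vp P y₁ u T)‖ < ρ₁ ∧
        ‖p z' - p (vp P y₁ u T)‖ < ρ₁ ∧ |(th z').im| ≤ (1 - c₁ / 2) * H ∧
        c₁ / 2 ≤ ‖deriv F (th z')‖ := by
  obtain ⟨K, η₀, hK, hKb, hη₀, hKη, hKin, hKout⟩ := good_set crv hc
  obtain ⟨ρ₁, hρ₁, hex⟩ := H394.first_exit crv.cv hK hKb C hη₀ hKη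
  set N₀ : ℝ := 4 * C / κ + 2 with hN₀
  have hN₀0 : 0 < N₀ := by positivity
  refine ⟨ρ₁, hρ₁, max ρ₁ N₀, le_max_left _ _, ?_⟩
  intro D al p th L P Zs w E hE0 hE1 hv hseg A B hB u η hu hη hJ m htail y₁ y₂ T hT hT' hy hdom
    h1 h2 h3 hw
  have hT0 : 0 < T := lt_of_lt_of_le (by positivity) hT
  set z₀ : ℂ × ℂ := vp P y₁ u T with hz₀
  have hz₀D : z₀ ∈ D := (hdom y₁ left_mem_uIcc T hT0 le_rfl).1
  set S : ℕ → Set (ℂ × ℂ) := Pc P u y₁ y₂ T m with hS
  have hSD : ∀ i, S i ⊆ D := by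
    intro i z hz
    obtain ⟨x, hx, t, rfl, ht0, htT⟩ := Pc_le hT hz
    exact (hdom x hx t ht0 htT).1
  set M : ℤ := round (th z₀).re with hM
  set xx : ℂ × ℂ → ℂ := fun z => th z + ((-M : ℤ) : ℂ) with hxx
  have hxre : ∀ z, (xx z).im = (th z).im := by
    intro z
    simp [hxx]
  have hdx : ∀ z ∈ D, deriv F (xx z) = deriv F (th z) := fun z hz =>
    deriv_add_int crv.Fp (L.mem z hz) (-M)
  have hz₀S : z₀ ∈ S 0 := Or.inl ⟨y₁, left_mem_uIcc, rfl⟩
  have hxK : xx z₀ ∈ K := by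
    apply hKin
    · have e1 : (xx z₀).re = (th z₀).re - M := by simp [hxx, sub_eq_add_neg]
      rw [e1]
      exact (abs_sub_round _).trans (by norm_num)
    · rw [hxre]; exact h1
    · rw [hdx z₀ hz₀D]; exact h2
  have hMi : ∀ i, ∀ z ∈ S i, xx z ∈ Sb H ∧ Mi F q (al z) (p z) (xx z) = 0 := by
    intro i z hz
    have hzD := hSD i hz
    refine ⟨sb_int (L.mem z hzD) (-M), ?_⟩
    show Mi F q (al z) (p z) (th z + ((-M : ℤ) : ℂ)) = 0
    rw [mi_int crv.Fp crv.qp (al z) (p z) (L.mem z hzD) (-M)]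
    exact L.inc z hzD
  -- oscillations
  set G : ℂ × ℂ → ℂ × ℂ := fun z => (al z, p z) with hG
  have hGc : ContinuousOn G D := L.dal.prodMk L.dp
  set e : ℕ → ℝ := fun i => Metric.diam (G '' S i) with he
  have hbdd : ∀ i, Bornology.IsBounded (G '' S i) := fun i =>
    ((Pc_compact i).image_of_continuousOn (hGc.mono (hSD i))).isBounded
  have hosc : ∀ i, ∀ z ∈ S i, ∀ z' ∈ S i, ‖al z - al z'‖ ≤ e i ∧ ‖p z - p z'‖ ≤ e i := by
    intro i z hz z' hz'
    have h4 : dist (G z) (G z') ≤ e i :=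
      Metric.dist_le_diam_of_mem (hbdd i) (mem_image_of_mem _ hz) (mem_image_of_mem _ hz')
    rw [dist_eq_norm] at h4
    constructor
    · refine le_trans ?_ h4
      exact norm_fst_le (G z - G z')
    · refine le_trans ?_ h4
      exact norm_snd_le (G z - G z')
  -- the vertical over `y₂` leaves
  have hleave : ∃ i, ∃ z ∈ S i, xx z ∉ cthickening η₀ K := by
    have h4 : cthickening η₀ K ⊆ {x : ℂ | |x.im| ≤ (1 - c₁ / 2) * H} := by
      intro x' hx'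
      rw [hK.cthickening_eq_biUnion_closedBall hη₀.le] at hx'
      simp only [mem_iUnion, mem_closedBall, exists_prop] at hx'
      obtain ⟨x, hx, hzx⟩ := hx'
      rw [dist_eq_norm] at hzx
      exact (hKout x hx x' hzx).1
    have hcH : (1 - c₁ / 2) * H < H := by
      have := crv.cv.b0
      nlinarith
    have h5 : ∀ᶠ t in 𝓝[>] (0 : ℝ), (1 - c₁ / 2) * H < |(th (vp P y₂ u t)).im| :=
      hw.eventually_const_lt hcH
    have h6 : ∀ᶠ t in 𝓝[>] (0 : ℝ), t ∈ Ioc 0 T := Ioc_mem_nhdsGT hT0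
    obtain ⟨t, h7, h8⟩ := (h5.and h6).exists
    obtain ⟨i, hi⟩ := Pc_cover (P := P) (u := u) (y₁ := y₁) (y₂ := y₂) hT' h8.1 h8.2
    refine ⟨i, _, hi, fun h9 => ?_⟩
    have h10 := h4 h9
    have h11 : |(xx (vp P y₂ u t)).im| ≤ (1 - c₁ / 2) * H := h10
    rw [hxre] at h11
    linarith
  have hxc : ContinuousOn xx (⋃ i, S i) := by
    have : (⋃ i, S i) ⊆ D := iUnion_subset hSD
    exact (L.dth.mono this).add continuousOn_const
  obtain ⟨n, hn1, hn2⟩ := hex (X := ℂ × ℂ) (S := S) (a := al) (p := p) (x := xx) (z₀ := z₀) (e := e)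
    (fun i => Pc_preconn hT i) (fun i => Pc_inter hT i) hz₀S hxc hxK h3 hMi hosc hleave
  -- windows
  set Pw : ℕ → Set Zs := fun i => {p | (p : ℂ × ℂ) ∈ S i} with hPw
  have hwin : ∀ i, ∀ z ∈ S i, ∃ hz : z ∈ Zs, (1 / 2 : ℝ) ^ (m + i + 1) ≤ w.ρ ⟨z, hz⟩ ∧
      w.ρ ⟨z, hz⟩ ≤ (1 / 2) ^ (m + i) := by
    intro i z hz
    obtain ⟨x, hx, t, hzt, ht1, ht2⟩ := Pc_mem hT hT' hz
    obtain ⟨x', hx', t', hzt', ht0', htT'⟩ := Pc_le hT hz
    have htt : t = t' := by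
      have e1 := congrArg (fun z : ℂ × ℂ => z.1.im) (hzt.symm.trans hzt')
      simp only [vp_im] at e1
      linarith
    subst htt
    obtain ⟨h4, h5⟩ := (hdom x hx t ht0' htT').2
    subst hzt
    exact ⟨h4, by rw [h5]; exact ht1, by rw [h5]; exact ht2⟩
  have hP : ∀ i ≤ n, ∀ p ∈ Pw i, (p : ℂ × ℂ).2.re = u ∧ (1 / 2 : ℝ) ^ (m + i + 1) ≤ w.ρ p ∧
      w.ρ p ≤ (1 / 2 : ℝ) ^ (m + i) := by
    rintro i - ⟨z, hz⟩ hzS
    obtain ⟨hz', h4, h5⟩ := hwin i z hzS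
    obtain ⟨x, -, t, hzt, -, -⟩ := Pc_le hT hzS
    refine ⟨?_, h4, h5⟩
    have hzt' : z = vp P x u t := hzt
    show z.2.re = u
    rw [hzt']
    simp [vp]
  have hpc : ∀ i, ∀ s : ℝ, 0 ≤ s → s < 1 → (∀ p ∈ Pw i, E p ≤ s) → e i ≤ max ρ₁ N₀ * s := by
    intro i s hs0 hs1 hs
    have hsegS : ∀ x y : ℂ × ℂ, segment ℝ x y ⊆ S i →
        dist (G x) (G y) ≤ (‖x - y‖ / (κ * (1 / 2) ^ (m + i + 1)) + 1) * s := by
      intro x y hxy
      have h4 := hseg x y ((1 / 2) ^ (m + i + 1)) s (by positivity) hs0 hs1 (fun z hz => by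
        obtain ⟨hz', h5, -⟩ := hwin i z (hxy hz)
        exact ⟨hz', h5, hs _ (hxy hz)⟩)
      rw [dist_eq_norm]
      show ‖(al x - al y, p x - p y)‖ ≤ _
      rw [Prod.norm_def]
      exact max_le h4.1 h4.2
    have hver : ∀ a b : ℝ, vp P y₂ u a ∈ S i → vp P y₂ u b ∈ S i →
        segment ℝ (vp P y₂ u a) (vp P y₂ u b) ⊆ S i → |a - b| ≤ (1 / 2) ^ (m + i + 1) →
        dist (G (vp P y₂ u a)) (G (vp P y₂ u b)) ≤ (1 / κ + 1) * s := by
      intro a b ha hb hab hl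
      refine (hsegS _ _ hab).trans ?_
      apply mul_le_mul_of_nonneg_right _ hs0
      have h4 := vp_sub P u y₂ y₂ a b
      rw [sub_self, abs_zero, zero_add] at h4
      have h5 : ‖vp P y₂ u a - vp P y₂ u b‖ / (κ * (1 / 2) ^ (m + i + 1)) ≤ 1 / κ := by
        rw [div_le_div_iff₀ (by positivity) hκ]
        nlinarith
      linarith
    have hCk : 1 / κ ≤ 2 * C / κ := by
      rw [div_le_div_iff_of_pos_right hκ]; linarith
    have hk0 : 0 < 1 / κ := by positivity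
    have hdiam : Metric.diam (G '' S i) ≤ N₀ * s := by
      apply Metric.diam_le_of_forall_dist_le (by positivity)
      rintro _ ⟨x, hx, rfl⟩ _ ⟨y, hy', rfl⟩
      cases i with
      | zero =>
        -- distance to the corner
        have hcor : ∀ x ∈ S 0, dist (G x) (G (vp P y₂ u T)) ≤ (2 * C / κ + 1) * s := by
          intro x hx
          rcases hx with ⟨a, ha, rfl⟩ | ⟨t, ht, rfl⟩
          · have hsub : segment ℝ (vp P a u T) (vp P y₂ u T) ⊆ S 0 := by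
              intro z hz
              obtain ⟨a', b', ha', hb', hab', rfl⟩ := seg_vp hz
              left
              refine ⟨a' * a + b' * y₂, ?_, ?_⟩
              · have hcx : Convex ℝ (uIcc y₁ y₂) := convex_uIcc _ _
                have := hcx ha right_mem_uIcc ha' hb' hab'
                simpa using this
              · show vp P (a' * a + b' * y₂) u T = _
                have e1 : a' * T + b' * T = T := by rw [← add_mul, hab', one_mul]
                rw [e1]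
            refine (hsegS _ _ hsub).trans ?_
            apply mul_le_mul_of_nonneg_right _ hs0
            have h4 := vp_sub P u a y₂ T T
            rw [sub_self, abs_zero, add_zero] at h4
            have h5 : |a - y₂| ≤ C * T := by
              rw [abs_sub_comm]
              exact (abs_sub_right_of_mem_uIcc ha).trans (by rw [abs_sub_comm]; exact hy)
            have h6 : T ≤ 2 * (1 / 2) ^ (m + 0 + 1) := by
              refine hT'.trans (le_of_eq ?_)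
              rw [add_zero, pow_succ]; ring
            have h7 : ‖vp P a u T - vp P y₂ u T‖ / (κ * (1 / 2) ^ (m + 0 + 1)) ≤ 2 * C / κ := by
              rw [div_le_div_iff₀ (by positivity) hκ]
              have h8 : ‖vp P a u T - vp P y₂ u T‖ ≤ C * (2 * (1 / 2) ^ (m + 0 + 1)) :=
                (h4.trans h5).trans (mul_le_mul_of_nonneg_left h6 (by linarith))
              calc ‖vp P a u T - vp P y₂ u T‖ * κ ≤ C * (2 * (1 / 2) ^ (m + 0 + 1)) * κ :=
                    mul_le_mul_of_nonneg_right h8 hκ.le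
                _ = 2 * C * (κ * (1 / 2) ^ (m + 0 + 1)) := by ring
            linarith
          · have hsub : segment ℝ (vp P y₂ u t) (vp P y₂ u T) ⊆ S 0 := by
              intro z hz
              obtain ⟨a', b', ha', hb', hab', rfl⟩ := seg_vp hz
              right
              refine ⟨a' * t + b' * T, ⟨?_, ?_⟩, ?_⟩
              · have : (1 / 2 : ℝ) ^ (m + 1) = a' * (1 / 2) ^ (m + 1) + b' * (1 / 2) ^ (m + 1) := by
                  rw [← add_mul, hab', one_mul]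
                rw [this]
                have e1 := mul_le_mul_of_nonneg_left ht.1 ha'
                have e2 := mul_le_mul_of_nonneg_left hT hb'
                linarith
              · have : T = a' * T + b' * T := by rw [← add_mul, hab', one_mul]
                have e1 := mul_le_mul_of_nonneg_left ht.2 ha'
                linarith
              · show vp P y₂ u (a' * t + b' * T) = _
                have e1 : a' * y₂ + b' * y₂ = y₂ := by rw [← add_mul, hab', one_mul]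
                rw [e1]
            have h4 := hver t T (Or.inr ⟨t, ht, rfl⟩) (Or.inr ⟨T, ⟨hT, le_rfl⟩, rfl⟩) hsub (by
              rw [abs_sub_comm, abs_of_nonneg (by linarith [ht.2])]
              have : (1 / 2 : ℝ) ^ m = 2 * (1 / 2) ^ (m + 1) := by rw [pow_succ]; ring
              have e3 := ht.1
              simp only [add_zero]
              linarith)
            refine h4.trans (mul_le_mul_of_nonneg_right ?_ hs0)
            linarith
        have h4 := dist_triangle_right (G x) (G y) (G (vp P y₂ u T))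
        have h5 := hcor x hx
        have h6 := hcor y hy'
        have h7 : N₀ * s = (2 * C / κ + 1) * s + (2 * C / κ + 1) * s := by rw [hN₀]; ring
        rw [h7]
        linarith
      | succ i =>
        obtain ⟨a, ha, rfl⟩ := id hx
        obtain ⟨b, hb, rfl⟩ := id hy'
        have hsub : segment ℝ (vp P y₂ u a) (vp P y₂ u b) ⊆ S (i + 1) := by
          intro z hz
          obtain ⟨a', b', ha', hb', hab', rfl⟩ := seg_vp hz
          have hcx : Convex ℝ (Icc ((1 / 2 : ℝ) ^ (m + (i + 1) + 1)) ((1 / 2) ^ (m + (i + 1)))) :=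
            convex_Icc _ _
          have := hcx ha hb ha' hb' hab'
          refine ⟨a' * a + b' * b, by simpa using this, ?_⟩
          show vp P y₂ u (a' * a + b' * b) = _
          have e1 : a' * y₂ + b' * y₂ = y₂ := by rw [← add_mul, hab', one_mul]
          rw [e1]
        have hl : |a - b| ≤ (1 / 2) ^ (m + (i + 1) + 1) := by
          have h5 : (1 / 2 : ℝ) ^ (m + (i + 1)) = 2 * (1 / 2) ^ (m + (i + 1) + 1) := by
            rw [pow_succ]; ring
          rw [abs_le]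
          constructor <;> linarith [ha.1, ha.2, hb.1, hb.2]
        refine (hver a b hx hy' hsub hl).trans (mul_le_mul_of_nonneg_right ?_ hs0)
        have : N₀ = 2 * (2 * C / κ) + 2 := by rw [hN₀]; ring
        linarith
    exact hdiam.trans (mul_le_mul_of_nonneg_right (le_max_right _ _) hs0)
  obtain ⟨i, hi, p₀, hp₀, z, hz1, hz2, hz3, -⟩ := H418.pick_of_sum w
    (fun z : Zs => (z : ℂ × ℂ).2.re) hv hB (a := 1 / 2) (θ := 1 / 8) (by norm_num) (by norm_num) hu hη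
    hJ hE0 hE1 hρ₁ (le_max_left ρ₁ N₀) htail hP (fun i _ => hpc i) hn1
  refine ⟨i, p₀, hp₀, z, hz1, hz2, hz3, ?_⟩
  intro i' hi' z' hz'
  obtain ⟨h4, h5, h6, h7, -⟩ := hn2 i' (lt_of_lt_of_le hi' hi) z' hz'
  have h8 := hKout _ hxK _ h6.le
  rw [hxre] at h8
  have h9 : deriv F (xx z') = deriv F (th z') := hdx z' (hSD i' hz')
  rw [h9] at h8
  exact ⟨h4, h5, h8.1, h8.2⟩

end Vale.Agent.P097.H650.T
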