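import Vale.Agent.P097.H650.T.SelA
import Vale.Agent.P097.H650.T.SelB

/-!
# P097 / case [c] / block (T), row SEL-B: the base of the pick over the world `W5`, with the list of
good points `(BG)` above the base
-/

set_option linter.all false

open Complex Metric Filter Topology Set MeasureTheory
open scoped ComplexConjugate ENNReal

namespace Vale.Agent.P097.H650.T

open Vale.Agent.P097.TC Vale.Agent.P097.H85 Vale.Agent.P097.H929 Vale.Agent.P097.A5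
open Vale.Agent.P097.H82.Sel Vale.Agent.P097.H315.Pick Vale.Agent.P097.H315

theorem Pc_cover' {P : ℝ → ℂ} {u y₁ y₂ T : ℝ} {m i : ℕ} (hi : 1 ≤ i) {t : ℝ}
    (ht : (1 / 2 : ℝ) ^ (m + i) ≤ t) (htT : t ≤ T) :
    ∃ i' < i, vp P y₂ u t ∈ Pc P u y₁ y₂ T m i' := by
  classical
  have hex : ∃ n : ℕ, (1 / 2 : ℝ) ^ (m + n + 1) ≤ t := ⟨i - 1, by
    have : m + (i - 1) + 1 = m + i := by omega
    rw [this]; exact ht⟩
  set n := Nat.find hex with hn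
  have h1 := Nat.find_spec hex
  have h2 : n ≤ i - 1 := Nat.find_min' hex (by
    have : m + (i - 1) + 1 = m + i := by omega
    rw [this]; exact ht)
  refine ⟨n, by omega, ?_⟩
  rcases Nat.eq_zero_or_pos n with h0 | h0
  · rw [h0]
    rw [← hn, h0] at h1
    exact Or.inr ⟨t, ⟨h1, htT⟩, rfl⟩
  · obtain ⟨j, hj⟩ : ∃ j, n = j + 1 := ⟨n - 1, by omega⟩
    have h3 := Nat.find_min hex (show j < n by omega)
    push Not at h3
    rw [← hn, hj] at h1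
    rw [hj]
    exact ⟨t, ⟨h1, h3.le⟩, rfl⟩

variable {Λ H b m K y₀ u₀ σ s : ℝ} {F q Ψ J : ℂ → ℂ} {Mj Mk B : Set (ℂ × ℂ)} {A : Set ℝ}
  {P : ℝ → ℂ} {c k : ℝ → ℝ} {al p th : ℂ × ℂ → ℂ}

theorem lcl_of (W : W5 Λ H F q b m Ψ Mj Mk B A P c k K y₀ u₀ σ s al p th J) {D : Set (ℂ × ℂ)}
    (hD : D ⊆ Dm Mj Mk) : Lcl H F q D al p th :=
  ⟨(W.dal.mono fun _ hz => (hD hz).1.2).continuousOn, (W.dp.mono fun _ hz => (hD hz).1.2).continuousOn,
    (W.dth.mono hD).continuousOn, fun z hz => W.mem z (hD hz), fun z hz => W.inc z (hD hz)⟩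

/-- `selB` with 82's windows over the world -/
theorem sel_mid (W : W5 Λ H F q b m Ψ Mj Mk B A P c k K y₀ u₀ σ s al p th J)
    {C c₁ kap : ℝ} (hC : 1 ≤ C) (hc : 0 < c₁) (hk : 0 < kap) :
    ∃ ρ₁ > 0, ∃ N : ℝ, ρ₁ ≤ N ∧ ∀ {A' : Set ℝ} {K1 T₁ d rm : ℝ}, DG A' (Rr P) c K1 T₁ →
    ND A' P c K1 u₀ d rm ⊆ Dm Mj Mk → (T₁ + K1 + 1) * kap ≤ 1 / 2 → kap ≤ 1 →
    ∀ {K2 d' rm' : ℝ}, d' + rm' ≤ d → 3 / 2 * rm' ≤ rm →
    ∀ {u : ℝ}, u ∈ A' → |u - u₀| < d' → ∀ {Bx : Set ℝ}, MeasurableSet Bx → ∀ {η : ℝ}, 0 < η →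
    8 * Marc.Jm A' Bx u ≤ ENNReal.ofReal η → ∀ {mm : ℕ},
    ∑' k : ℕ, H418.bi (1 / 2) A' Bx u (k + mm) ≤
      ENNReal.ofReal (η * (ρ₁ / N) / 2 ^ (2 * (1 / 2 : ℝ) + 8)) →
    ∀ {y₁ y₂ T : ℝ}, (1 / 2 : ℝ) ^ (mm + 1) ≤ T → T ≤ (1 / 2) ^ mm → T < rm' →
    |y₁ - y₂| ≤ C * T →
    |(th (vp P y₁ u T)).im| ≤ (1 - c₁) * H → c₁ ≤ ‖deriv F (th (vp P y₁ u T))‖ →
    |(al (vp P y₁ u T)).im| ≤ C →
    Tendsto (fun S : ℝ => |(th (vp P y₂ u S)).im|) (𝓝[>] 0) (𝓝 H) →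
    ∃ (i : ℕ) (x t : ℝ), x ∈ uIcc y₁ y₂ ∧ 0 < t ∧ t ≤ T ∧ (1 / 2 : ℝ) ^ (mm + i + 1) ≤ t ∧
      t ≤ (1 / 2 : ℝ) ^ (mm + i) ∧ (1 ≤ i → x = y₂) ∧
      ∃ hp : vp P x u t ∈ Zs A' (Rr P) c K1 K2 u₀ d' rm', ∃ z : Zs A' (Rr P) c K1 K2 u₀ d' rm',
      (win A' (Rr P) c K1 K2 u₀ d' rm').Near (1 / 2)
        (fun z => Ez A' (Rr P) c K1 kap (fun z => (al z, p z)) z.1) ⟨vp P x u t, hp⟩ z ∧
      Marc.Mz A' Bx z.1.2.re (dep A' (Rr P) c K1 z.1) < ENNReal.ofReal η ∧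
      (1 - (1 / 2 : ℝ) ^ (1 / 8 : ℝ)) / 4 * (ρ₁ / N) * ((1 / 2 : ℝ) ^ i) ^ (1 / 8 : ℝ) ≤
        Ez A' (Rr P) c K1 kap (fun z => (al z, p z)) (vp P x u t) ∧
      ∀ i' < i, ∀ z' ∈ Pc P u y₁ y₂ T mm i', ‖al z' - al (vp P y₁ u T)‖ < ρ₁ ∧
        ‖p z' - p (vp P y₁ u T)‖ < ρ₁ ∧ |(th z').im| ≤ (1 - c₁ / 2) * H ∧
        c₁ / 2 ≤ ‖deriv F (th z')‖ := by
  obtain ⟨ρ₁, hρ₁, N, hN, hsel⟩ := selB W.crv (C := C) (c₁ := c₁) (κ := kap) hC hc hk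
  refine ⟨ρ₁, hρ₁, N, hN, ?_⟩
  intro A' K1 T₁ d rm hDG hND hk1 hk2 K2 d' rm' hd hr u hu hud Bx hBx η hη hJ mm htail y₁ y₂ T hm1
    hm2 hTr hyy q4 q5 q6 w2
  have hT0 : 0 < T := lt_of_lt_of_le (by positivity) hm1
  have hwn : ∀ z : ℂ × ℂ, z ∈ Zs A' (Rr P) c K1 K2 u₀ d' rm' →
      closedBall z (kap * dep A' (Rr P) c K1 z) ⊆ ND A' P c K1 u₀ d rm := fun z hz =>
    win_sub hDG hk.le hk1 hk2 hd hr hz
  have hL := lcl_of W hND
  have hLc : ContinuousOn (fun z => (al z, p z)) (ND A' P c K1 u₀ d rm) := hL.dal.prodMk hL.dp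
  have hvw : ∀ (x t : ℝ), 0 < t → t ≤ T → vp P x u t ∈ ND A' P c K1 u₀ d rm ∧
      ∃ hz : vp P x u t ∈ Zs A' (Rr P) c K1 K2 u₀ d' rm',
        (win A' (Rr P) c K1 K2 u₀ d' rm').ρ ⟨vp P x u t, hz⟩ = t := by
    intro x t h0 h1
    obtain ⟨h2, h3⟩ := vp_win hDG (K2 := K2) hu hud x h0 (lt_of_le_of_lt h1 hTr)
    refine ⟨hwn _ h2 (mem_closedBall_self ?_), h2, h3⟩
    rw [h3]; positivity
  obtain ⟨i, p₀, hp₀, z, hz1, hz2, hz3, hz4⟩ := hsel hL (w := win A' (Rr P) c K1 K2 u₀ d' rm')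
    (E := fun z => Ez A' (Rr P) c K1 kap (fun z => (al z, p z)) z.1)
    (fun z => Ez_nonneg z.1) (fun z => Ez_le_one z.1) (fun z z' => win_v z z')
    (by
      intro x x' δ s hδ hs0 hs1 hw
      have h1 := seg_osc (A := A') (R := Rr P) (c := c) (K1 := K1) (kap := kap)
        (L := fun z => (al z, p z)) (z := x) (z' := x') hδ hk hs0 hs1
        (fun z hz => by obtain ⟨h2, h3, -⟩ := hw z hz; exact h3)
        (fun z hz => by obtain ⟨h2, -, -⟩ := hw z hz; exact hLc.mono (hwn z h2))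
        (fun z hz => by obtain ⟨h2, -, h4⟩ := hw z hz; exact h4)
      rw [norm_sub_rev x' x] at h1
      constructor
      · refine le_trans ?_ h1
        rw [norm_sub_rev]
        exact norm_fst_le ((al x', p x') - (al x, p x))
      · refine le_trans ?_ h1
        rw [norm_sub_rev]
        exact norm_snd_le ((al x', p x') - (al x, p x)))
    hBx hu hη hJ htail hm1 hm2 hyy (fun x _ t h0 h1 => hvw x t h0 h1) q4 q5 q6 w2
  obtain ⟨x, hx, t, hpx, ht1, ht2⟩ := Pc_mem hm1 hm2 hp₀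
  obtain ⟨x', hx', t', hpx', ht0', htT'⟩ := Pc_le hm1 hp₀
  have htt : t = t' := by
    have e1 := congrArg (fun z : ℂ × ℂ => z.1.im) (hpx.symm.trans hpx')
    simp only [vp_im] at e1
    linarith
  subst htt
  have hpx0 : vp P x u t ∈ Zs A' (Rr P) c K1 K2 u₀ d' rm' := hpx ▸ p₀.2
  have hpe : p₀ = ⟨vp P x u t, hpx0⟩ := Subtype.ext hpx
  refine ⟨i, x, t, hx, ht0', htT', ht1, ht2, fun hi => ?_, hpx0, z, ?_, hz2, ?_, hz4⟩
  · obtain ⟨j, rfl⟩ : ∃ j, i = j + 1 := ⟨i - 1, by omega⟩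
    obtain ⟨t'', -, ht''⟩ := hp₀
    have e1 := congrArg (fun z : ℂ × ℂ => z.1.re) (ht''.trans hpx)
    simp only [vp_re] at e1
    exact e1.symm
  · rw [← hpe]
    exact hz1
  · have h := hz3
    rw [hpe] at h
    exact h

/-- the starting scale -/
theorem start_scale {S γ rm' C : ℝ} (hS : 0 < S) (hγ : 0 < γ) (hr : 0 < rm') (hC : 0 < C) (M : ℕ) :
    ∃ s₀ > 0, s₀ ≤ S / 2 ∧ C * s₀ ≤ γ / 2 ∧ C * s₀ ≤ rm' / 2 ∧ C * s₀ ≤ 1 ∧
      C * s₀ ≤ (1 / 2) ^ (M + 1) := by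
  have key : ∀ a : ℝ, C * (a / C) = a := fun a => by field_simp
  have hm : ∀ {s a : ℝ}, s ≤ a / C → C * s ≤ a := fun {s a} h => by
    have := mul_le_mul_of_nonneg_left h hC.le
    rwa [key] at this
  refine ⟨min (S / 2) (min (γ / 2 / C) (min (rm' / 2 / C) (min (1 / C) ((1 / 2) ^ (M + 1) / C)))),
    by positivity, min_le_left _ _, ?_, ?_, ?_, ?_⟩
  · exact hm ((min_le_right _ _).trans (min_le_left _ _))
  · exact hm ((min_le_right _ _).trans ((min_le_right _ _).trans (min_le_left _ _)))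
  · exact hm ((min_le_right _ _).trans ((min_le_right _ _).trans ((min_le_right _ _).trans
      (min_le_left _ _))))
  · exact hm ((min_le_right _ _).trans ((min_le_right _ _).trans ((min_le_right _ _).trans
      (min_le_right _ _))))

theorem foot {y y₁ y₂ a : ℝ} (h1 : |y₁ - y| ≤ a) (h2 : |y₂ - y| ≤ a) {x : ℝ}
    (hx : x ∈ uIcc y₁ y₂) : |x - y| ≤ a := by
  have h3 := abs_le.1 h1
  have h4 := abs_le.1 h2
  rcases le_total y₁ y₂ with h | h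
  · rw [uIcc_of_le h] at hx
    rw [abs_le]
    constructor <;> linarith [hx.1, hx.2]
  · rw [uIcc_of_ge h] at hx
    rw [abs_le]
    constructor <;> linarith [hx.1, hx.2]

/-- **SEL-B over the world.**  `QG` of H555 is written out. -/
theorem sel_base (W : W5 Λ H F q b m Ψ Mj Mk B A P c k K y₀ u₀ σ s al p th J)
    {C c₁ kap : ℝ} (hC : 1 ≤ C) (hc : 0 < c₁) (hk : 0 < kap) :
    ∃ C' ≥ 1, ∃ c' > 0, ∀ {A' : Set ℝ} {K1 T₁ d rm : ℝ}, DG A' (Rr P) c K1 T₁ →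
    ND A' P c K1 u₀ d rm ⊆ Dm Mj Mk → (T₁ + K1 + 1) * kap ≤ 1 / 2 → kap ≤ 1 →
    ∀ {K2 d' rm' : ℝ}, 0 < rm' → d' + rm' ≤ d → 3 / 2 * rm' ≤ rm →
    ∀ {u y S : ℝ}, u ∈ A' → |u - u₀| < d' → 0 < S →
    (∀ s : ℝ, 0 < s → s < S → ∃ y' S', |y' - y| ≤ C * s ∧ s ≤ C * S' ∧ S' ≤ C * s ∧
      |(th (vp P y' u S')).im| ≤ (1 - c₁) * H ∧ c₁ ≤ ‖deriv F (th (vp P y' u S'))‖ ∧
      |(al (vp P y' u S')).im| ≤ C ∧ ‖p (vp P y' u S')‖ ≤ C) →
    (∀ ε > 0, ∃ y₂ : ℝ, |y₂ - y| < ε ∧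
      Tendsto (fun S : ℝ => |(th (vp P y₂ u S)).im|) (𝓝[>] 0) (𝓝 H)) →
    ∀ {Bx : Set ℝ}, MeasurableSet Bx → ∀ {η : ℝ}, 0 < η →
    8 * Marc.Jm A' Bx u ≤ ENNReal.ofReal η → ∀ γ : ℝ, 0 < γ →
    ∃ t₀ x t : ℝ, 0 < t₀ ∧ t₀ ≤ γ ∧ 0 < t ∧ t ≤ t₀ ∧ |x - y| ≤ C' * t₀ ∧
      ∃ hp : vp P x u t ∈ Zs A' (Rr P) c K1 K2 u₀ d' rm', ∃ z : Zs A' (Rr P) c K1 K2 u₀ d' rm',
      (win A' (Rr P) c K1 K2 u₀ d' rm').Near (1 / 2)
        (fun z => Ez A' (Rr P) c K1 kap (fun z => (al z, p z)) z.1) ⟨vp P x u t, hp⟩ z ∧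
      Marc.Mz A' Bx z.1.2.re (dep A' (Rr P) c K1 z.1) < ENNReal.ofReal η ∧
      c' * (t / t₀) ^ (1 / 8 : ℝ) ≤ Ez A' (Rr P) c K1 kap (fun z => (al z, p z)) (vp P x u t) ∧
      ∀ s : ℝ, 2 * t ≤ s → s < S → ∃ x' t', |x' - x| ≤ C' * s ∧ s ≤ C' * t' ∧ t' ≤ C' * s ∧
        |(th (vp P x' u t')).im| ≤ (1 - c') * H ∧ c' ≤ ‖deriv F (th (vp P x' u t'))‖ ∧
        |(al (vp P x' u t')).im| ≤ C' ∧ ‖p (vp P x' u t')‖ ≤ C' := by
  obtain ⟨ρ₁, hρ₁, N, hN, hsel⟩ := sel_mid W (C := (C + 1) * C) (c₁ := c₁) (kap := kap)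
    (by nlinarith) hc hk
  have hH : 0 < H := W.crv.cv.b0
  have hN0 : 0 < N := lt_of_lt_of_le hρ₁ hN
  have hr1 : (1 / 2 : ℝ) ^ (1 / 8 : ℝ) < 1 :=
    Real.rpow_lt_one (by norm_num) (by norm_num) (by norm_num)
  set c₂ : ℝ := (1 - (1 / 2 : ℝ) ^ (1 / 8 : ℝ)) / 4 * (ρ₁ / N) with hc₂
  have hc₂0 : 0 < c₂ := by
    have : 0 < 1 - (1 / 2 : ℝ) ^ (1 / 8 : ℝ) := by linarith
    positivity
  obtain ⟨c', hc'0, hc'1, hc'2⟩ : ∃ c' : ℝ, 0 < c' ∧ c' ≤ c₁ / 2 ∧ c' ≤ c₂ :=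
    ⟨min (c₁ / 2) c₂, by positivity, min_le_left _ _, min_le_right _ _⟩
  have hC0 : 0 < C := by linarith
  have hCC0 : C * 1 ≤ C * C := mul_le_mul_of_nonneg_left hC hC0.le
  obtain ⟨C', hCe⟩ : ∃ C' : ℝ, C' = (C + 1) * C + ρ₁ := ⟨_, rfl⟩
  have hCe' : C' = C * C + C + ρ₁ := by rw [hCe]; ring
  have hCC : C ≤ C' := by linarith
  have hCC3 : C + C * C ≤ C' := by linarith
  have hC'1 : 1 ≤ C' := hC.trans hCC
  refine ⟨C', hC'1, c', hc'0, ?_⟩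
  intro A' K1 T₁ d rm hDG hND hk1 hk2 K2 d' rm' hrm hd hr u y S hu hud hS hQ hwall Bx hBx η hη hJ γ hγ
  have hJ' : Marc.Jm A' Bx u ≠ ∞ := by
    intro h
    rw [h, ENNReal.mul_top (by norm_num), top_le_iff] at hJ
    exact ENNReal.ofReal_ne_top hJ
  obtain ⟨M, hM⟩ := H418.exists_start (a := 1 / 2) (by norm_num) hu hη hJ' (ρ₀ := ρ₁ / N)
    (by positivity)
  obtain ⟨s₀, hs0, hs1, hs2, hs3, hs4, hs5⟩ := start_scale hS hγ hrm hC0 M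
  obtain ⟨y₁, T, q1, q2, q3, q4, q5, q6, q7⟩ := hQ s₀ hs0 (by linarith)
  have hT0 : 0 < T := by
    by_contra hn
    push Not at hn
    have := mul_nonpos_of_nonneg_of_nonpos hC0.le hn
    linarith
  have hT1 : T ≤ 1 := q3.trans hs4
  obtain ⟨mm, hm1, hm2⟩ := exists_nat_pow_near_of_lt_one hT0 hT1 (by norm_num : (0 : ℝ) < 1 / 2)
    (by norm_num)
  have hmM : M ≤ mm := by
    by_contra hlt
    push Not at hlt
    have h1 : (1 / 2 : ℝ) ^ (M + 1) ≤ (1 / 2) ^ (mm + 1) :=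
      pow_le_pow_of_le_one (by norm_num) (by norm_num) (by omega)
    linarith
  obtain ⟨y₂, w1, w2⟩ := hwall s₀ hs0
  have hCs : s₀ ≤ C * s₀ := by
    have := mul_le_mul_of_nonneg_right hC hs0.le
    linarith
  have hyy : |y₁ - y₂| ≤ (C + 1) * C * T := by
    have h1 := abs_sub_le y₁ y y₂
    rw [abs_sub_comm y y₂] at h1
    have h2 : (C + 1) * s₀ ≤ (C + 1) * (C * T) := mul_le_mul_of_nonneg_left q2 (by linarith)
    calc |y₁ - y₂| ≤ C * s₀ + s₀ := by linarith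
      _ = (C + 1) * s₀ := by ring
      _ ≤ (C + 1) * (C * T) := h2
      _ = (C + 1) * C * T := by ring
  obtain ⟨i, x, t, hx, ht0', htT', ht1, ht2, hxy, hp, z, hz1, hz2, hz3, hz4⟩ := hsel hDG hND hk1 hk2
    (K2 := K2) hd hr hu hud hBx hη hJ (hM mm hmM) hm1.le hm2 (by linarith) hyy q4 q5
    (q6.trans (by linarith)) w2
  have hpm : ∀ j : ℕ, (0 : ℝ) < (1 / 2) ^ j := fun j => by positivity
  have hfx : |x - y| ≤ C * s₀ := foot q1 (by linarith) hx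
  have hCs2 : C * s₀ ≤ C * C * T := by
    have := mul_le_mul_of_nonneg_left q2 hC0.le
    linarith
  refine ⟨(1 / 2) ^ mm, x, t, hpm _, ?_, ht0', htT'.trans hm2, ?_, hp, z, hz1, hz2, ?_, ?_⟩
  · have : (1 / 2 : ℝ) ^ mm = 2 * (1 / 2) ^ (mm + 1) := by rw [pow_succ]; ring
    linarith
  · have h2 : C * C * T ≤ C' * T := mul_le_mul_of_nonneg_right (by linarith) hT0.le
    have h3 : C' * T ≤ C' * (1 / 2) ^ mm := mul_le_mul_of_nonneg_left hm2 (by linarith)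
    linarith
  · refine le_trans ?_ hz3
    have h2 : t / (1 / 2) ^ mm ≤ (1 / 2) ^ i := by
      rw [div_le_iff₀ (hpm _), ← pow_add, add_comm i mm]
      exact ht2
    have h3 : (t / (1 / 2) ^ mm) ^ (1 / 8 : ℝ) ≤ ((1 / 2 : ℝ) ^ i) ^ (1 / 8 : ℝ) :=
      Real.rpow_le_rpow (by positivity) h2 (by norm_num)
    exact mul_le_mul hc'2 h3 (by positivity) hc₂0.le
  · intro s hs hsS
    have hs0' : 0 < s := by linarith
    have hmid : ∀ a : ℝ, a ≤ (1 - c₁ / 2) * H → a ≤ (1 - c') * H := fun a ha => by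
      have := mul_le_mul_of_nonneg_right hc'1 hH.le
      linarith
    rcases le_or_gt T s with hTs' | hTs'
    · -- above the start: QG
      obtain ⟨y', S', g1, g2, g3, g4, g5, g6, g7⟩ := hQ s hs0' hsS
      have hS'0 : 0 ≤ S' := by
        by_contra hn
        push Not at hn
        have := mul_nonpos_of_nonneg_of_nonpos hC0.le hn.le
        linarith
      refine ⟨y', S', ?_, g2.trans (mul_le_mul_of_nonneg_right hCC hS'0),
        g3.trans (mul_le_mul_of_nonneg_right hCC hs0'.le), ?_, by linarith, g6.trans hCC,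
        g7.trans hCC⟩
      · have h1 := abs_sub_le y' y x
        rw [abs_sub_comm y x] at h1
        have h3 : C * C * T ≤ C * C * s := mul_le_mul_of_nonneg_left hTs' (by positivity)
        have h4 : (C + C * C) * s ≤ C' * s := mul_le_mul_of_nonneg_right hCC3 hs0'.le
        linarith
      · apply hmid
        have : 0 < c₁ * H := by positivity
        linarith
    · -- in the zone
      have hi1 : 1 ≤ i := by
        rcases Nat.eq_zero_or_pos i with h0 | h0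
        · exfalso
          rw [h0, add_zero] at ht1
          have : (1 / 2 : ℝ) ^ mm = 2 * (1 / 2) ^ (mm + 1) := by rw [pow_succ]; ring
          linarith
        · exact h0
      have hsi : (1 / 2 : ℝ) ^ (mm + i) ≤ s := by
        have : (1 / 2 : ℝ) ^ (mm + i) = 2 * (1 / 2) ^ (mm + i + 1) := by rw [pow_succ]; ring
        linarith
      obtain ⟨i', hi', hmem⟩ := Pc_cover' (P := P) (u := u) (y₁ := y₁) (y₂ := y₂) hi1 hsi hTs'.le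
      obtain ⟨g1, g2, g3, g4⟩ := hz4 i' hi' _ hmem
      have e1 : s ≤ C' * s := by
        have := mul_le_mul_of_nonneg_right hC'1 hs0'.le
        linarith
      refine ⟨y₂, s, ?_, e1, e1, hmid _ g3, by linarith, ?_, ?_⟩
      · rw [hxy hi1, sub_self, abs_zero]; positivity
      · have h1 : |(al (vp P y₂ u s) - al (vp P y₁ u T)).im| ≤ ρ₁ :=
          (Complex.abs_im_le_norm _).trans g1.le
        have h2 : (al (vp P y₂ u s)).im = (al (vp P y₂ u s) - al (vp P y₁ u T)).im +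
            (al (vp P y₁ u T)).im := by rw [Complex.sub_im]; ring
        rw [h2]
        exact (abs_add_le _ _).trans (by linarith)
      · have h2 : p (vp P y₂ u s) = (p (vp P y₂ u s) - p (vp P y₁ u T)) + p (vp P y₁ u T) := by
          ring
        rw [h2]
        exact (norm_add_le _ _).trans (by linarith)

end Vale.Agent.P097.H650.T
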