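import Vale.Agent.P097.TC.Defs5
import Vale.Agent.P097.H561.Exit
import Vale.Agent.P097.H394.Base

/-!
# P097 / case [c] / block (T), row SEL: geometry of the windows over the world `W5`

`cn` = height of the cone of slope `K₁` at the label `u`; `lipP` = the height of the edge is
Lipschitz on the labels; `nat_cone` = the union of the cones is native; `cn_lab` = at a label the
supremum of the cones is the height of the edge.
-/

set_option linter.all false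

open Complex Metric Filter Topology Set MeasureTheory
open scoped ComplexConjugate

namespace Vale.Agent.P097.H650.T

open Vale.Agent.P097.TC Vale.Agent.P097.H85 Vale.Agent.P097.H929 Vale.Agent.P097.A5

/-- height of the cone of slope `K₁` with vertex at the label `u`, over `w` -/
noncomputable def cn (P : ℝ → ℂ) (c : ℝ → ℝ) (K₁ u : ℝ) (w : ℂ) : ℝ :=
  (P u).im + c u * (w.re - u) - K₁ * ‖w - u‖

/-- **the height of the edge is Lipschitz on the labels** (at small distances) -/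
theorem lipP {M : Set (ℂ × ℂ)} {b m : ℝ} {Ψ : ℂ → ℂ} {A : Set ℝ} {P : ℝ → ℂ} {c k : ℝ → ℝ}
    (hU : CmpU M b m Ψ A P c k) : ∃ C ≥ 0, ∃ d > 0, ∀ u ∈ A, ∀ u' ∈ A, |u - u'| < d →
      |(P u).im - (P u').im| ≤ C * |u - u'| := by
  obtain ⟨S, hS⟩ := hU.bd
  obtain ⟨ρ, hρ, h⟩ := hU.cmp 1 one_pos 1 one_pos
  refine ⟨4 + 3 * |S|, by positivity, ρ, hρ, ?_⟩
  intro u hu u' hu' hd
  set x : ℝ := |u - u'| with hx
  rcases (abs_nonneg (u - u')).eq_or_lt with h0 | h0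
  · have e1 : u = u' := by
      have := abs_eq_zero.1 h0.symm
      linarith
    rw [e1]; simp; positivity
  · set w : ℂ := (u : ℂ) + (x : ℂ) * I with hw
    have hwre : w.re = u := by simp [hw]
    have hwim : w.im = x := by simp [hw]
    have h1 := (h u hu).re_im zero_le_one (w := w) (r := x) (by rw [hwre]; simpa using hρ)
      (by rw [hwim]; exact h0) (by rw [hwim]; exact hd)
      (by rw [hwre, hwim, sub_self, abs_zero, mul_zero]; exact h0.le)
      (by rw [hwre, sub_self, abs_zero]; exact h0.le) (by rw [hwim])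
    have h2 := (h u' hu').re_im zero_le_one (w := w) (r := x) (by rw [hwre]; exact hd)
      (by rw [hwim]; exact h0) (by rw [hwim]; exact hd) (by rw [hwre, hwim]; linarith)
      (by rw [hwre]) (by rw [hwim])
    have e1 := h1.2
    have e2 := h2.2
    rw [hwre, hwim] at e1 e2
    simp only [sub_self, mul_zero, sub_zero] at e1
    have s1 := (hS u hu).2
    have s2 := (hS u' hu').1
    have s3 := (hS u' hu').2
    have s0 := le_abs_self S
    have a1 : |k u * x| ≤ |S| * x := by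
      rw [abs_mul, abs_of_pos h0]; exact mul_le_mul_of_nonneg_right (by linarith) h0.le
    have a2 : |c u' * (u - u')| ≤ |S| * x := by
      rw [abs_mul]; exact mul_le_mul_of_nonneg_right (by linarith) h0.le
    have a3 : |k u' * x| ≤ |S| * x := by
      rw [abs_mul, abs_of_pos h0]; exact mul_le_mul_of_nonneg_right (by linarith) h0.le
    rw [abs_le] at e1 e2 a1 a2 a3 ⊢
    constructor <;> linarith [e1.1, e1.2, e2.1, e2.2, a1.1, a1.2, a2.1, a2.2, a3.1, a3.2]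

/-- **at the labels the supremum of the cones is the height of the edge** -/
theorem cn_lab {M : Set (ℂ × ℂ)} {b m : ℝ} {Ψ : ℂ → ℂ} {A : Set ℝ} {P : ℝ → ℂ} {c k : ℝ → ℝ}
    (hU : CmpU M b m Ψ A P c k) : ∃ K₀ ≥ 0, ∃ d > 0, ∀ K₁ ≥ K₀, ∀ u ∈ A, ∀ u' ∈ A, |u - u'| < d →
      cn P c K₁ u' (u : ℂ) ≤ (P u).im := by
  obtain ⟨C, hC, d, hd, h⟩ := lipP hU
  obtain ⟨S, hS⟩ := hU.bd
  refine ⟨C + |S|, by positivity, d, hd, ?_⟩
  intro K₁ hK u hu u' hu' huu
  have h1 := (abs_le.1 (h u hu u' hu' huu)).1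
  have e1 : ‖(u : ℂ) - (u' : ℂ)‖ = |u - u'| := by
    rw [← ofReal_sub, Complex.norm_real, Real.norm_eq_abs]
  unfold cn
  rw [e1, ofReal_re]
  have a2 : c u' * (u - u') ≤ |S| * |u - u'| := by
    refine (le_abs_self _).trans ?_
    rw [abs_mul]
    exact mul_le_mul_of_nonneg_right (((hS u' hu').1).trans (le_abs_self _)) (abs_nonneg _)
  have a3 : (C + |S|) * |u - u'| ≤ K₁ * |u - u'| := mul_le_mul_of_nonneg_right hK (abs_nonneg _)
  nlinarith

/-- **the cones are native** -/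
theorem nat_cone {B : Set (ℂ × ℂ)} {b K : ℝ} {A : Set ℝ} {P : ℝ → ℂ} {c : ℝ → ℝ} (hK : 0 < K)
    (h : ∀ ε > 0, ∃ δ > 0, ∀ u ∈ A, ∀ v : ℂ, ‖v‖ < δ → ∀ t : ℂ, b < t.im →
      t.im < (P u).im + c u * v.re - K * |v.im| - ε * ‖v‖ → (t, (u : ℂ) + v) ∈ B)
    {K₁ : ℝ} (hK₁ : K < K₁) : ∃ δ > 0, ∀ u ∈ A, ∀ t w : ℂ, ‖w - u‖ < δ → b < t.im →
      t.im < cn P c K₁ u w → (t, w) ∈ B := by
  obtain ⟨δ, hδ, h1⟩ := h (K₁ - K) (by linarith)
  refine ⟨δ, hδ, fun u hu t w hw hb ht => ?_⟩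
  have h2 := h1 u hu (w - u) hw t hb ?_
  · have e1 : (u : ℂ) + (w - u) = w := by ring
    rwa [e1] at h2
  · refine ht.trans_le ?_
    unfold cn
    have e1 : |(w - (u : ℂ)).im| ≤ ‖w - u‖ := Complex.abs_im_le_norm _
    have e2 : K * |(w - (u : ℂ)).im| ≤ K * ‖w - u‖ := mul_le_mul_of_nonneg_left e1 hK.le
    have e3 : (w - (u : ℂ)).re = w.re - u := by simp
    rw [e3]
    nlinarith

/-- the points of the verticals over the labels are native -/
theorem vp_mem {B : Set (ℂ × ℂ)} {b K : ℝ} {A : Set ℝ} {P : ℝ → ℂ} {c : ℝ → ℝ}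
    (h : ∀ ε > 0, ∃ δ > 0, ∀ u ∈ A, ∀ v : ℂ, ‖v‖ < δ → ∀ t : ℂ, b < t.im →
      t.im < (P u).im + c u * v.re - K * |v.im| - ε * ‖v‖ → (t, (u : ℂ) + v) ∈ B)
    {u : ℝ} (hu : u ∈ A) (y : ℝ) {S : ℝ} (h0 : 0 < S) (h1 : b < (P u).im - S) :
    vp P y u S ∈ B := by
  obtain ⟨δ, hδ, h2⟩ := h 1 one_pos
  have h3 := h2 u hu 0 (by simpa using hδ) ((y : ℂ) + ((P u).im - S : ℝ) * I) (by simpa using h1)
    (by simp; linarith)
  simpa [vp] using h3

theorem vp_im (P : ℝ → ℂ) (y u S : ℝ) : (vp P y u S).1.im = (P u).im - S := by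
  simp [vp]

theorem vp_re (P : ℝ → ℂ) (y u S : ℝ) : (vp P y u S).1.re = y := by
  simp [vp]

theorem vp_snd (P : ℝ → ℂ) (y u S : ℝ) : (vp P y u S).2 = u := rfl

theorem continuous_vp (P : ℝ → ℂ) (u : ℝ) : Continuous fun x : ℝ × ℝ => vp P x.1 u x.2 := by
  unfold vp
  fun_prop

/-- the chain of pieces: `0` = horizontal piece at depth `t₀` from `y` to `y'`, `i + 1` = the piece
of the vertical over `y'` between the depths `t₀ / 2 ^ (i + 1)` and `t₀ / 2 ^ i` -/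
def Sc (P : ℝ → ℂ) (u y y' t₀ : ℝ) : ℕ → Set (ℂ × ℂ)
  | 0 => (fun x : ℝ => vp P x u t₀) '' uIcc y y'
  | i + 1 => (fun t : ℝ => vp P y' u t) '' Icc (t₀ * (1 / 2) ^ (i + 1)) (t₀ * (1 / 2) ^ i)

theorem Sc_preconn (P : ℝ → ℂ) (u y y' t₀ : ℝ) (i : ℕ) : IsPreconnected (Sc P u y y' t₀ i) := by
  cases i with
  | zero =>
    refine isPreconnected_uIcc.image _ (Continuous.continuousOn ?_)
    exact (continuous_vp P u).comp (f := fun x : ℝ => (x, t₀)) (by fun_prop)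
  | succ i =>
    refine isPreconnected_Icc.image _ (Continuous.continuousOn ?_)
    exact (continuous_vp P u).comp (f := fun x : ℝ => (y', x)) (by fun_prop)

theorem Sc_inter {P : ℝ → ℂ} {u y y' t₀ : ℝ} (ht : 0 < t₀) (i : ℕ) :
    (Sc P u y y' t₀ i ∩ Sc P u y y' t₀ (i + 1)).Nonempty := by
  have hp : ∀ j : ℕ, t₀ * (1 / 2 : ℝ) ^ (j + 1) ≤ t₀ * (1 / 2) ^ j := fun j =>
    mul_le_mul_of_nonneg_left (pow_le_pow_of_le_one (by norm_num) (by norm_num) (by omega)) ht.le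
  cases i with
  | zero =>
    refine ⟨vp P y' u t₀, ⟨y', right_mem_uIcc, rfl⟩, ⟨t₀, ⟨?_, ?_⟩, rfl⟩⟩
    · have := hp 0
      simpa using this
    · simp
  | succ i =>
    refine ⟨vp P y' u (t₀ * (1 / 2) ^ (i + 1)), ⟨_, ⟨le_rfl, hp i⟩, rfl⟩,
      ⟨_, ⟨hp (i + 1), le_rfl⟩, rfl⟩⟩

/-- every point of the chain is `vp P x u t` with `x` between `y` and `y'` and the depth in the
octave -/
theorem Sc_mem {P : ℝ → ℂ} {u y y' t₀ : ℝ} (ht : 0 < t₀) {i : ℕ} {z : ℂ × ℂ}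
    (hz : z ∈ Sc P u y y' t₀ i) : ∃ x ∈ uIcc y y', ∃ t : ℝ, z = vp P x u t ∧
      t₀ * (1 / 2) ^ i ≤ t ∧ t ≤ t₀ * (1 / 2) ^ (i - 1) ∧ (i = 0 → t = t₀) ∧ (i ≠ 0 → x = y') ∧
      t₀ * (1 / 2) ^ i ≤ t := by
  cases i with
  | zero =>
    obtain ⟨x, hx, rfl⟩ := hz
    exact ⟨x, hx, t₀, rfl, by simp, by simp, fun _ => rfl, fun h => absurd rfl h, by simp⟩
  | succ i =>
    obtain ⟨t, ht', rfl⟩ := hz
    exact ⟨y', right_mem_uIcc, t, rfl, ht'.1, by simpa using ht'.2, fun h => by omega,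
      fun _ => rfl, ht'.1⟩

end Vale.Agent.P097.H650.T
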